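import Mathlib

/-!
# P305: a combinatorial lemma on partial injections

Let `f` be injective on the finite set `D`, without fixed points in `D`.  Then there are a set
`A ⊆ D` with `f a ∉ A` for `a ∈ A` and a set `R` of base points of pairwise disjoint `f`-cycles of
odd length contained in `D` such that `|D| ≤ 2 |A| + |R|`.
-/

namespace Vale.Agent.Lib.P305

open Function Finset

variable {V : Type*}

theorem periodic_of_image_eq (f : V → V) (D : Finset V) (hinj : Set.InjOn f D)
    (hmaps : Set.MapsTo f D D) (u : V) (hu : u ∈ D) : u ∈ periodicPts f := by
  classical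
  have hmem : ∀ i : ℕ, f^[i] u ∈ D := fun i => hmaps.iterate i hu
  obtain ⟨i, j, hij, heq⟩ := Finite.exists_ne_map_eq_of_infinite
    (fun i : ℕ => (⟨f^[i] u, hmem i⟩ : {x // x ∈ D}))
  have heq' : f^[i] u = f^[j] u := congrArg Subtype.val heq
  wlog hlt : i < j generalizing i j
  · exact this j i hij.symm heq.symm heq'.symm (by omega)
  have h1 : f^[i] u = f^[i] (f^[j - i] u) := by
    rw [← iterate_add_apply, Nat.add_sub_cancel' hlt.le]; exact heq'
  have h2 := (hinj.iterate hmaps i) hu (hmem (j - i)) h1
  exact mk_mem_periodicPts (n := j - i) (by omega) h2.symm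

theorem core (f : V → V) (n : ℕ) : ∀ D : Finset V, D.card = n → Set.InjOn f D →
    (∀ u ∈ D, f u ≠ u) →
    ∃ A R : Finset V, A ⊆ D ∧ (∀ a ∈ A, f a ∉ A) ∧ (∀ r ∈ R, ∀ i, f^[i] r ∈ D) ∧
      (∀ r ∈ R, Odd (minimalPeriod f r)) ∧
      (∀ r ∈ R, ∀ r' ∈ R, r ≠ r' → ∀ i j, f^[i] r ≠ f^[j] r') ∧
      D.card ≤ 2 * A.card + R.card := by
  classical
  induction n using Nat.strong_induction_on with
  | _ n ih =>
    intro D hn hinj hfix
    by_cases hA : ∃ u ∈ D, u ∉ D.image f
    · obtain ⟨u, huD, hu⟩ := hA
      set D' := (D.erase u).erase (f u) with hD'
      have hsub : D' ⊆ D := (erase_subset _ _).trans (erase_subset _ _)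
      have huD' : u ∉ D' := by simp [hD']
      have hfuD' : f u ∉ D' := by simp [hD']
      have hlt : D'.card < n := by
        rw [← hn]
        exact card_lt_card ⟨hsub, fun h => huD' (h huD)⟩
      have hc2 : D.card ≤ D'.card + 2 := by
        have h1 : D.card - 1 ≤ (D.erase u).card := pred_card_le_card_erase
        have h2 : (D.erase u).card - 1 ≤ D'.card := pred_card_le_card_erase
        omega
      obtain ⟨A, R, hAD, hAf, hRD, hRodd, hRdisj, hcard⟩ := ih D'.card hlt D' rfl
        (hinj.mono (by exact_mod_cast hsub)) (fun v hv => hfix v (hsub hv))
      have huA : u ∉ A := fun h => huD' (hAD h)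
      refine ⟨insert u A, R, ?_, ?_, fun r hr i => hsub (hRD r hr i), hRodd, hRdisj, ?_⟩
      · intro a ha
        rcases mem_insert.mp ha with rfl | ha
        · exact huD
        · exact hsub (hAD ha)
      · intro a ha hfa
        rcases mem_insert.mp ha with rfl | ha
        · rcases mem_insert.mp hfa with h | h
          · exact hfix a huD h
          · exact hfuD' (hAD h)
        · rcases mem_insert.mp hfa with h | h
          · exact hu (mem_image.mpr ⟨a, hsub (hAD ha), h⟩)
          · exact hAf a ha h
      · rw [card_insert_of_notMem huA]
        omega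
    · push Not at hA
      by_cases hne : D.Nonempty
      · obtain ⟨u, huD⟩ := hne
        have himg : D.image f = D :=
          (eq_of_subset_of_card_le hA card_image_le).symm
        have hmaps : Set.MapsTo f D D := by
          intro x hx
          have : f x ∈ D.image f := mem_image_of_mem f hx
          rw [himg] at this
          exact this
        have hper := periodic_of_image_eq f D hinj hmaps u huD
        set k := minimalPeriod f u with hk
        have hkpos : 0 < k := minimalPeriod_pos_of_mem_periodicPts hper
        have hkper : f^[k] u = u := isPeriodicPt_minimalPeriod f u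
        have hkinj : Set.InjOn (fun i => f^[i] u) (Set.Iio k) := iterate_injOn_Iio_minimalPeriod
        have hmem : ∀ i : ℕ, f^[i] u ∈ D := fun i => hmaps.iterate i huD
        set O := (range k).image (fun i => f^[i] u) with hO
        have hOD : O ⊆ D := by
          intro x hx
          obtain ⟨i, -, rfl⟩ := mem_image.mp hx
          exact hmem i
        have hOcard : O.card = k := by
          rw [hO, card_image_of_injOn, card_range]
          intro i hi j hj h
          exact hkinj (by simpa using hi) (by simpa using hj) h
        have hmod : ∀ i : ℕ, f^[i] u = f^[i % k] u := by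
          intro i
          exact (iterate_mod_minimalPeriod_eq (f := f) (x := u) (n := i)).symm
        have hOmem : ∀ i : ℕ, f^[i] u ∈ O := by
          intro i
          rw [hmod i]
          exact mem_image.mpr ⟨i % k, mem_range.mpr (Nat.mod_lt _ hkpos), rfl⟩
        set D' := D \ O with hD'
        have hsub : D' ⊆ D := sdiff_subset
        have hcD : D'.card + k = D.card := by
          rw [hD', ← hOcard]
          exact card_sdiff_add_card_eq_card hOD
        have hlt : D'.card < n := by omega
        obtain ⟨A, R, hAD, hAf, hRD, hRodd, hRdisj, hcard⟩ := ih D'.card hlt D' rfl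
          (hinj.mono (by exact_mod_cast hsub)) (fun v hv => hfix v (hsub hv))
        set E := (range (k / 2)).image (fun j => f^[2 * j] u) with hE
        have hEcard : E.card = k / 2 := by
          rw [hE, card_image_of_injOn, card_range]
          intro i hi j hj h
          have hi' : i < k / 2 := by simpa using hi
          have hj' : j < k / 2 := by simpa using hj
          have := hkinj (x₁ := 2 * i) (x₂ := 2 * j) (by simp; omega) (by simp; omega) h
          omega
        have hEO : E ⊆ O := by
          intro x hx
          obtain ⟨j, -, rfl⟩ := mem_image.mp hx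
          exact hOmem _
        have hdisjAE : Disjoint A E := by
          rw [disjoint_left]
          intro x hxA hxE
          exact (mem_sdiff.mp (hAD hxA)).2 (hEO hxE)
        have hAout : ∀ a ∈ A, f a ∉ O := by
          intro a ha hfa
          obtain ⟨i, hi, hfi⟩ := mem_image.mp hfa
          -- `f^[i] u = f (f^[i + k - 1] u)`
          have h1 : f^[i] u = f (f^[i + k - 1] u) := by
            rw [← iterate_succ_apply' f, show (i + k - 1).succ = i + k by omega, iterate_add_apply,
              hkper]
          have h2 : f (f^[i + k - 1] u) = f a := by rw [← h1]; exact hfi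
          have h3 := hinj (hmem _) (hsub (hAD ha)) h2
          exact (mem_sdiff.mp (hAD ha)).2 (h3 ▸ hOmem _)
        have hEf : ∀ a ∈ E, f a ∉ E ∧ f a ∈ O := by
          intro a ha
          obtain ⟨j, hj, rfl⟩ := mem_image.mp ha
          have hj' : j < k / 2 := by simpa using hj
          rw [← iterate_succ_apply' f]
          refine ⟨fun h => ?_, hOmem _⟩
          obtain ⟨j2, hj2, h2⟩ := mem_image.mp h
          have hj2' : j2 < k / 2 := by simpa using hj2
          have := hkinj (x₁ := 2 * j2) (x₂ := (2 * j).succ) (by simp; omega) (by simp; omega) h2
          omega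
        have hAE : ∀ a ∈ A ∪ E, f a ∉ A ∪ E := by
          intro a ha hfa
          rcases mem_union.mp ha with ha | ha
          · rcases mem_union.mp hfa with h | h
            · exact hAf a ha h
            · exact hAout a ha (hEO h)
          · rcases mem_union.mp hfa with h | h
            · exact (mem_sdiff.mp (hAD h)).2 (hEf a ha).2
            · exact (hEf a ha).1 h
        have hAEsub : A ∪ E ⊆ D := union_subset (hAD.trans hsub) (hEO.trans hOD)
        have hAEcard : (A ∪ E).card = A.card + k / 2 := by
          rw [card_union_of_disjoint hdisjAE, hEcard]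
        rcases Nat.even_or_odd k with hev | hodd
        · refine ⟨A ∪ E, R, hAEsub, hAE, fun r hr i => hsub (hRD r hr i), hRodd, hRdisj, ?_⟩
          obtain ⟨q, hq⟩ := hev
          rw [hAEcard]
          omega
        · have huR : u ∉ R := fun h => (mem_sdiff.mp (hRD u h 0)).2 (hOmem 0)
          refine ⟨A ∪ E, insert u R, hAEsub, hAE, ?_, ?_, ?_, ?_⟩
          · intro r hr i
            rcases mem_insert.mp hr with rfl | hr
            · exact hmem i
            · exact hsub (hRD r hr i)
          · intro r hr
            rcases mem_insert.mp hr with rfl | hr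
            · exact hodd
            · exact hRodd r hr
          · intro r hr r' hr' hne i j h
            rcases mem_insert.mp hr with h1 | h1 <;> rcases mem_insert.mp hr' with h2 | h2
            · exact hne (h1.trans h2.symm)
            · subst h1
              exact (mem_sdiff.mp (hRD r' h2 j)).2 (h ▸ hOmem i)
            · subst h2
              exact (mem_sdiff.mp (hRD r h1 i)).2 (h ▸ hOmem j)
            · exact hRdisj r h1 r' h2 hne i j h
          · obtain ⟨q, hq⟩ := hodd
            rw [hAEcard, card_insert_of_notMem huR]
            omega
      · rw [not_nonempty_iff_eq_empty] at hne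
        subst hne
        exact ⟨∅, ∅, by simp, by simp, by simp, by simp, by simp, by simp⟩

end Vale.Agent.Lib.P305
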