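import Mathlib

namespace Vale.Agent.Lib.P305

/-- `M` is a matching of the graph `H`: a finite set of edges of `H` such that no vertex lies on
two different edges of `M`. -/
def IsMatchingSet {W : Type*} (H : SimpleGraph W) (M : Finset (Sym2 W)) : Prop :=
  (∀ e ∈ M, e ∈ H.edgeSet) ∧ ∀ e ∈ M, ∀ e' ∈ M, ∀ v, v ∈ e → v ∈ e' → e = e'

/-- The sequence `c 0, c 1, ...` runs around a cycle of length `k` of `G`: consecutive terms are
adjacent, the sequence has period `k`, and `c 0, ..., c (k - 1)` are pairwise distinct. -/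
def IsCycleSeq {V : Type*} (G : SimpleGraph V) (k : ℕ) (c : ℕ → V) : Prop :=
  (∀ i, G.Adj (c i) (c (i + 1))) ∧ (∀ i, c (i + k) = c i) ∧ Set.InjOn c (Set.Iio k)

end Vale.Agent.Lib.P305
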