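import Mathlib
import Vale.Agent.Lib.P305.Defs

namespace Vale.Agent.Lib.P305

open Function Finset

variable {V : Type*}

/-- A matching of `G` lifts to a matching of the bipartite double cover of twice the size. -/
theorem lift (G : SimpleGraph V) (N : Finset (Sym2 V)) (hN : IsMatchingSet G N) :
    ∃ N' : Finset (Sym2 (V ⊕ V)), IsMatchingSet G.bipartiteDoubleCover N' ∧
      N'.card = 2 * N.card := by
  classical
  obtain ⟨hedge, hdisj⟩ := hN
  have key : ∀ e ∈ N, ∃ p : V × V, e = s(p.1, p.2) ∧ G.Adj p.1 p.2 := by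
    intro e he
    have h := hedge e he
    induction e with | _ v w
    exact ⟨(v, w), rfl, h⟩
  choose g hg using key
  set P1 := N.attach.image (fun e => g e.1 e.2) with hP1
  set P2 := N.attach.image (fun e => (g e.1 e.2).swap) with hP2
  have hmem1 : ∀ p ∈ P1, s(p.1, p.2) ∈ N ∧ G.Adj p.1 p.2 := by
    intro p hp
    obtain ⟨e, -, rfl⟩ := mem_image.mp hp
    exact ⟨(hg e.1 e.2).1 ▸ e.2, (hg e.1 e.2).2⟩
  have hmem2 : ∀ p ∈ P2, s(p.1, p.2) ∈ N ∧ G.Adj p.1 p.2 := by
    intro p hp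
    obtain ⟨e, -, rfl⟩ := mem_image.mp hp
    refine ⟨?_, (hg e.1 e.2).2.symm⟩
    simp only [Prod.fst_swap, Prod.snd_swap]
    rw [Sym2.eq_swap]
    exact (hg e.1 e.2).1 ▸ e.2
  have hc1 : P1.card = N.card := by
    rw [hP1, card_image_of_injOn, card_attach]
    intro e _ e' _ h
    have h' : g e.1 e.2 = g e'.1 e'.2 := h
    apply Subtype.ext
    rw [(hg e.1 e.2).1, (hg e'.1 e'.2).1, h']
  have hc2 : P2.card = N.card := by
    rw [hP2, card_image_of_injOn, card_attach]
    intro e _ e' _ h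
    have h' : g e.1 e.2 = g e'.1 e'.2 := Prod.swap_injective h
    apply Subtype.ext
    rw [(hg e.1 e.2).1, (hg e'.1 e'.2).1, h']
  have hdisjP : Disjoint P1 P2 := by
    rw [disjoint_left]
    intro p hp1 hp2
    obtain ⟨e, -, rfl⟩ := mem_image.mp hp1
    obtain ⟨e', -, h⟩ := mem_image.mp hp2
    have h1 : (g e'.1 e'.2).2 = (g e.1 e.2).1 := congrArg Prod.fst h
    have h2 : (g e'.1 e'.2).1 = (g e.1 e.2).2 := congrArg Prod.snd h
    have hee : e.1 = e'.1 := by
      rw [(hg e.1 e.2).1, (hg e'.1 e'.2).1, h1, h2, Sym2.eq_swap]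
    have hee' : e = e' := Subtype.ext hee
    subst hee'
    exact (hg e.1 e.2).2.ne (h2 ▸ rfl : (g e.1 e.2).1 = (g e.1 e.2).2)
  set P := P1 ∪ P2 with hP
  have hmem : ∀ p ∈ P, s(p.1, p.2) ∈ N ∧ G.Adj p.1 p.2 := by
    intro p hp
    rcases mem_union.mp hp with h | h
    · exact hmem1 p h
    · exact hmem2 p h
  have hPcard : P.card = 2 * N.card := by
    rw [hP, card_union_of_disjoint hdisjP, hc1, hc2]; ring
  refine ⟨P.image (fun p => s(Sum.inl p.1, Sum.inr p.2)), ⟨?_, ?_⟩, ?_⟩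
  · intro e he
    obtain ⟨p, hp, rfl⟩ := mem_image.mp he
    rw [SimpleGraph.mem_edgeSet]
    simpa using (hmem p hp).2
  · intro e he e' he' x hx hx'
    obtain ⟨p, hp, rfl⟩ := mem_image.mp he
    obtain ⟨q, hq, rfl⟩ := mem_image.mp he'
    rw [Sym2.mem_iff] at hx hx'
    rcases hx with rfl | rfl <;> rcases hx' with h | h
    · have h1 : p.1 = q.1 := Sum.inl_injective h
      have h2 := hdisj _ (hmem p hp).1 _ (hmem q hq).1 p.1 (by simp) (by rw [h1]; simp)
      rw [h1, Sym2.eq_iff] at h2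
      have h3 : p.2 = q.2 := by
        rcases h2 with ⟨-, h⟩ | ⟨h, h'⟩
        · exact h
        · rw [h', h]
      rw [h1, h3]
    · exact absurd h (by simp)
    · exact absurd h (by simp)
    · have h1 : p.2 = q.2 := Sum.inr_injective h
      have h2 := hdisj _ (hmem p hp).1 _ (hmem q hq).1 p.2 (by simp) (by rw [h1]; simp)
      rw [h1, Sym2.eq_iff] at h2
      have h3 : p.1 = q.1 := by
        rcases h2 with ⟨h, -⟩ | ⟨h, h'⟩
        · exact h
        · rw [h, h']
      rw [h1, h3]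
  · rw [card_image_of_injOn, hPcard]
    intro p _ q _ h
    have h' : s((Sum.inl p.1 : V ⊕ V), Sum.inr p.2) = s(Sum.inl q.1, Sum.inr q.2) := h
    rw [Sym2.eq_iff] at h'
    rcases h' with ⟨h1, h2⟩ | ⟨h1, -⟩
    · exact Prod.ext (Sum.inl_injective h1) (Sum.inr_injective h2)
    · exact absurd h1 (by simp)

end Vale.Agent.Lib.P305
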