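import Mathlib
import Vale.Agent.Lib.P305.Defs
import Vale.Agent.Lib.P305.Core

namespace Vale.Agent.Lib.P305

open Function Finset

variable {V : Type*}

theorem edge_form (G : SimpleGraph V) (e : Sym2 (V ⊕ V)) (he : e ∈ G.bipartiteDoubleCover.edgeSet) :
    ∃ p : V × V, e = s(Sum.inl p.1, Sum.inr p.2) ∧ G.Adj p.1 p.2 := by
  induction e with | _ v w
  rw [SimpleGraph.mem_edgeSet] at he
  match v, w with
  | .inl a, .inr b => exact ⟨(a, b), rfl, by simpa using he⟩
  | .inr a, .inl b => exact ⟨(b, a), Sym2.eq_swap, by simpa using he.symm⟩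
  | .inl _, .inl _ | .inr _, .inr _ => simp at he

/-- Rounding a matching of the bipartite double cover. -/
theorem round (G : SimpleGraph V) (M' : Finset (Sym2 (V ⊕ V)))
    (hM' : IsMatchingSet G.bipartiteDoubleCover M') :
    ∃ (M : Finset (Sym2 V)) (t : ℕ) (k : Fin t → ℕ) (c : Fin t → ℕ → V),
      IsMatchingSet G M ∧
      (∀ e ∈ M, ∃ u v, e = s(u, v) ∧ s(Sum.inl u, Sum.inr v) ∈ M') ∧
      (∀ i, Odd (k i) ∧ IsCycleSeq G (k i) (c i)) ∧
      (∀ i j, i ≠ j → ∀ a b, c i a ≠ c j b) ∧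
      M'.card ≤ 2 * M.card + t := by
  classical
  obtain ⟨hedge, hdisj⟩ := hM'
  -- the relation and the partial injection
  let Rel : V → V → Prop := fun u v => s((Sum.inl u : V ⊕ V), Sum.inr v) ∈ M'
  have hRadj : ∀ u v, Rel u v → G.Adj u v := by
    intro u v h
    have := hedge _ h
    rw [SimpleGraph.mem_edgeSet] at this
    simpa using this
  have hRfun : ∀ u v v', Rel u v → Rel u v' → v = v' := by
    intro u v v' h h'
    have := hdisj _ h _ h' (Sum.inl u) (by simp) (by simp)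
    simpa using this
  have hRinj : ∀ u u' v, Rel u v → Rel u' v → u = u' := by
    intro u u' v h h'
    have := hdisj _ h _ h' (Sum.inr v) (by simp) (by simp)
    simpa using this
  have key : ∀ e ∈ M', ∃ p : V × V, e = s(Sum.inl p.1, Sum.inr p.2) ∧ G.Adj p.1 p.2 :=
    fun e he => edge_form G e (hedge e he)
  choose g hg using key
  set D := M'.attach.image (fun e => (g e.1 e.2).1) with hD
  have hDcard : D.card = M'.card := by
    rw [hD, card_image_of_injOn, card_attach]
    intro e _ e' _ h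
    have h1 := (hg e.1 e.2).1
    have h2 := (hg e'.1 e'.2).1
    have h3 : (g e.1 e.2).1 = (g e'.1 e'.2).1 := h
    have t1 : ∀ x : V ⊕ V, x ∈ s((Sum.inl (g e.1 e.2).1 : V ⊕ V), Sum.inr (g e.1 e.2).2) →
        x ∈ e.1 := fun x hx => by rw [h1]; exact hx
    have t2 : ∀ x : V ⊕ V, x ∈ s((Sum.inl (g e'.1 e'.2).1 : V ⊕ V), Sum.inr (g e'.1 e'.2).2) →
        x ∈ e'.1 := fun x hx => by rw [h2]; exact hx
    have m1 : (Sum.inl (g e.1 e.2).1 : V ⊕ V) ∈ e.1 := t1 _ (by simp)
    have m2 : (Sum.inl (g e.1 e.2).1 : V ⊕ V) ∈ e'.1 := t2 _ (by rw [h3]; simp)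
    exact Subtype.ext (hdisj e.1 e.2 e'.1 e'.2 _ m1 m2)
  have hDrel : ∀ u ∈ D, ∃ v, Rel u v := by
    intro u hu
    obtain ⟨e, -, rfl⟩ := mem_image.mp hu
    refine ⟨(g e.1 e.2).2, ?_⟩
    change s(_, _) ∈ M'
    rw [← (hg e.1 e.2).1]
    exact e.2
  let f : V → V := fun u => if h : ∃ v, Rel u v then h.choose else u
  have hf : ∀ u ∈ D, Rel u (f u) := by
    intro u hu
    have h := hDrel u hu
    simp only [f, dif_pos h]
    exact h.choose_spec
  have hinj : Set.InjOn f D := by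
    intro u hu u' hu' h
    have h1 := hf u hu
    have h2 := hf u' hu'
    rw [← h] at h2
    exact hRinj _ _ _ h1 h2
  have hadj : ∀ u ∈ D, G.Adj u (f u) := fun u hu => hRadj _ _ (hf u hu)
  have hfix : ∀ u ∈ D, f u ≠ u := fun u hu => (hadj u hu).ne'
  obtain ⟨A, R, hAD, hAf, hRD, hRodd, hRdisj, hcard⟩ := core f D.card D rfl hinj hfix
  have hMcard : (A.image (fun a => s(a, f a))).card = A.card := by
    rw [card_image_of_injOn]
    intro a ha b hb h
    have h' : s(a, f a) = s(b, f b) := h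
    rw [Sym2.eq_iff] at h'
    rcases h' with ⟨h1, -⟩ | ⟨h1, -⟩
    · exact h1
    · exact absurd (h1 ▸ ha) (hAf b hb)
  refine ⟨A.image (fun a => s(a, f a)), R.card, fun i => minimalPeriod f (R.equivFin.symm i),
    fun i j => f^[j] (R.equivFin.symm i), ⟨?_, ?_⟩, ?_, ?_, ?_, ?_⟩
  · intro e he
    obtain ⟨a, ha, rfl⟩ := mem_image.mp he
    exact hadj a (hAD ha)
  · intro e he e' he' v hv hv'
    obtain ⟨a, ha, rfl⟩ := mem_image.mp he
    obtain ⟨b, hb, rfl⟩ := mem_image.mp he'
    rw [Sym2.mem_iff] at hv hv'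
    rcases hv with rfl | rfl <;> rcases hv' with h | h
    · rw [h]
    · exact absurd (h ▸ ha) (hAf b hb)
    · exact absurd (h ▸ hb) (hAf a ha)
    · rw [hinj (hAD ha) (hAD hb) h]
  · intro e he
    obtain ⟨a, ha, rfl⟩ := mem_image.mp he
    exact ⟨a, f a, rfl, hf a (hAD ha)⟩
  · intro i
    have hr := (R.equivFin.symm i).2
    refine ⟨hRodd _ hr, ?_, ?_, iterate_injOn_Iio_minimalPeriod⟩
    · intro j
      change G.Adj (f^[j] _) (f^[j + 1] _)
      rw [iterate_succ_apply']
      exact hadj _ (hRD _ hr j)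
    · intro j
      change f^[j + minimalPeriod f _] _ = f^[j] _
      rw [iterate_add_apply]
      congr 1
      exact isPeriodicPt_minimalPeriod f _
  · intro i j hij a b
    refine hRdisj _ (R.equivFin.symm i).2 _ (R.equivFin.symm j).2 ?_ a b
    intro h
    exact hij (R.equivFin.symm.injective (Subtype.ext h))
  · rw [hMcard, ← hDcard]
    exact hcard

end Vale.Agent.Lib.P305
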